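import Crest.Agent.R166.Iface

/-!
# Row 166, block Env: measure-preserving maps of environments
-/

set_option autoImplicit false

open MeasureTheory Filter Topology
open scoped BigOperators ENNReal

noncomputable section

namespace Crest.Agent.R166

variable {q : ℕ}

instance t0_prob_env (π : Measure II) [IsProbabilityMeasure π] : IsProbabilityMeasure (envLaw q π) := by
  unfold envLaw; infer_instance

instance t0_prob_star (π : Measure II) [IsProbabilityMeasure π] : IsProbabilityMeasure (starLaw q π) := by
  unfold starLaw; infer_instance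

instance t0_prob_edge (π : Measure II) [IsProbabilityMeasure π] : IsProbabilityMeasure (edgeLaw q π) := by
  unfold edgeLaw; infer_instance

theorem t0_measurable_cons : Measurable fun p : II × (Fin q → Env q) => cons p.1 p.2 := by
  refine measurable_pi_lambda _ fun l => ?_
  cases l with
  | nil => exact measurable_fst
  | cons j l => exact (measurable_pi_apply l).comp ((measurable_pi_apply j).comp measurable_snd)

theorem t0_measurable_split : Measurable fun β : Env q => (β [], fun j => child β j) :=
  (measurable_pi_apply _).prodMk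
    (measurable_pi_lambda _ fun _ => measurable_pi_lambda _ fun _ => measurable_pi_apply _)

/-- root and subtrees -/
def t0_consE (q : ℕ) : II × (Fin q → Env q) ≃ᵐ Env q where
  toFun p := cons p.1 p.2
  invFun β := (β [], fun j => child β j)
  left_inv _ := rfl
  right_inv β := by funext l; cases l <;> rfl
  measurable_toFun := t0_measurable_cons
  measurable_invFun := t0_measurable_split

theorem t0_prod_list (s : Finset (List (Fin q))) (f : List (Fin q) → ℝ≥0∞) :
    ∏ l ∈ s, f l = (if [] ∈ s then f [] else 1) *
      ∏ j : Fin q, ∏ l ∈ s.preimage (List.cons j) List.cons_injective.injOn, f (j :: l) := by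
  classical
  rw [← Finset.prod_fiberwise s List.head? f, Fintype.prod_option]
  congr 1
  · split_ifs with h
    · refine Finset.prod_eq_single_of_mem [] (by simp [h]) fun l hl hne => ?_
      exact absurd (List.head?_eq_none_iff.1 (Finset.mem_filter.1 hl).2) hne
    · refine Finset.prod_eq_one fun l hl => ?_
      obtain ⟨h1, h2⟩ := Finset.mem_filter.1 hl
      exact absurd (List.head?_eq_none_iff.1 h2 ▸ h1) h
  · refine Finset.prod_congr rfl fun j _ => ?_
    rw [Finset.prod_preimage']
    refine Finset.prod_congr (Finset.filter_congr fun l _ => ?_) fun _ _ => rfl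
    rw [List.head?_eq_some_iff]
    exact ⟨fun ⟨a, h⟩ => ⟨a, h.symm⟩, fun ⟨a, h⟩ => ⟨a, h.symm⟩⟩

theorem t0_mp_cons (π : Measure II) [IsProbabilityMeasure π] :
    MeasurePreserving (fun p : II × (Fin q → Env q) => cons p.1 p.2)
      (π.prod (Measure.pi fun _ => envLaw q π)) (envLaw q π) := by
  classical
  refine ⟨t0_measurable_cons, Measure.eq_infinitePi _ fun s t ht => ?_⟩
  rw [Measure.map_apply t0_measurable_cons (MeasurableSet.pi s.countable_toSet fun i _ => ht i)]
  have h1 : (fun p : II × (Fin q → Env q) => cons p.1 p.2) ⁻¹' Set.pi s t =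
      (if [] ∈ s then t [] else Set.univ) ×ˢ Set.pi Set.univ fun j : Fin q =>
        Set.pi (s.preimage (List.cons j) List.cons_injective.injOn) fun l => t (j :: l) := by
    ext p
    simp only [Set.mem_preimage, Set.mem_pi, Finset.mem_coe, Set.mem_prod, Set.mem_univ, true_imp_iff,
      Finset.mem_preimage]
    constructor
    · intro h
      refine ⟨?_, fun j l hl => h _ hl⟩
      split_ifs with h0
      · exact h _ h0
      · trivial
    · rintro ⟨h1, h2⟩ l hl
      cases l with
      | nil => rwa [if_pos hl] at h1
      | cons j l => exact h2 j l hl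
  rw [h1, Measure.prod_prod, Measure.pi_pi, t0_prod_list]
  congr 1
  · split_ifs <;> simp
  · exact Finset.prod_congr rfl fun j _ => Measure.infinitePi_pi _ fun l _ => ht _

theorem t0_mp_perm {ι X : Type} [Fintype ι] [MeasurableSpace X] (μ : Measure X) [IsProbabilityMeasure μ]
    (e : ι ≃ ι) : MeasurePreserving (fun (f : ι → X) i => f (e i)) (Measure.pi fun _ => μ)
      (Measure.pi fun _ => μ) :=
  (measurePreserving_piCongrLeft (fun _ : ι => μ) e).symm _

theorem t0_mp_rot (π : Measure II) [IsProbabilityMeasure π] (k : Fin (q + 1)) :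
    MeasurePreserving (fun e : SEnv q => (e.1, fun i => e.2 (k + i))) (starLaw q π) (starLaw q π) :=
  (MeasurePreserving.id π).prod (t0_mp_perm (envLaw q π) (Equiv.addLeft k))

theorem t0_mp_near (π : Measure II) [IsProbabilityMeasure π] (i : Fin (q + 1)) :
    MeasurePreserving (fun e : SEnv q => (nearV e i, e.2 i)) (starLaw q π) (edgeLaw q π) := by
  have h1 := t0_mp_rot π i
  have h2 := (MeasurePreserving.id π).prod (Measure.measurePreserving_swap.comp
    (measurePreserving_piFinSuccAbove (fun _ : Fin (q + 1) => envLaw q π) 0))
  have h3 := (measurePreserving_prodAssoc π (Measure.pi fun _ : Fin q => envLaw q π) (envLaw q π)).symm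
    MeasurableEquiv.prodAssoc
  have h4 := (t0_mp_cons (q := q) π).prod (MeasurePreserving.id (envLaw q π))
  unfold edgeLaw
  convert h4.comp (h3.comp (h2.comp h1)) using 1
  funext e
  simp [nearV, MeasurableEquiv.prodAssoc]
  rfl

theorem stEnv : StEnv := fun q π _ =>
  ⟨t0_mp_cons π, (MeasurePreserving.symm (t0_consE q) (t0_mp_cons π)), t0_mp_near π, t0_mp_rot π⟩

end Crest.Agent.R166
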