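import Crest.Agent.R166.Iface

/-!
# Row 166, block T0: the tree recursion off the real axis
-/

set_option autoImplicit false

open MeasureTheory Filter Topology Complex
open scoped BigOperators

noncomputable section

namespace Crest.Agent.R166

variable {q : ℕ}

/-- square root of `gam` -/
def t0_dl (a b : ℂ) : ℝ := ‖a - b‖ / √(a.im * b.im)

theorem t0_neg_inv_im (W : ℂ) : (-W⁻¹).im = W.im / ‖W‖ ^ 2 := by
  rw [neg_im, inv_im, Complex.normSq_eq_norm_sq]; ring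

theorem t0_ne_zero {W : ℂ} (h : 0 < W.im) : W ≠ 0 := fun h0 => by simp [h0] at h

theorem t0_dl_inv {W W' : ℂ} (h : 0 < W.im) (h' : 0 < W'.im) : t0_dl (-W⁻¹) (-W'⁻¹) = t0_dl W W' := by
  have h0 := t0_ne_zero h
  have h0' := t0_ne_zero h'
  have hn := norm_pos_iff.2 h0
  have hn' := norm_pos_iff.2 h0'
  unfold t0_dl
  have e1 : -W⁻¹ - -W'⁻¹ = (W - W') / (W * W') := by field_simp; ring
  have e2 : W.im / ‖W‖ ^ 2 * (W'.im / ‖W'‖ ^ 2) = W.im * W'.im / (‖W‖ * ‖W'‖) ^ 2 := by field_simp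
  have hs : 0 < √(W.im * W'.im) := Real.sqrt_pos.2 (mul_pos h h')
  rw [e1, t0_neg_inv_im, t0_neg_inv_im, e2, Real.sqrt_div' _ (sq_nonneg _), Real.sqrt_sq (by positivity),
    norm_div, norm_mul]
  field_simp

theorem t0_W_im (s : ℝ) (z : ℂ) (a : II) (Y : Fin q → ℂ) :
    (z - s * (a : ℝ) + ∑ j, Y j).im = z.im + ∑ j, (Y j).im := by
  simp [Complex.im_sum]

theorem t0_norm_le_of_dl {a b : ℂ} (ha : 0 < a.im) (hb : 0 < b.im) {D : ℝ} (h : t0_dl a b ≤ D) :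
    ‖a - b‖ ≤ D * √(a.im * b.im) :=
  (div_le_iff₀ (Real.sqrt_pos.2 (mul_pos ha hb))).1 h

theorem t0_norm_le_of_dl' {a b : ℂ} (ha : 0 < a.im) (hb : 0 < b.im) {D B : ℝ} (h : t0_dl a b ≤ D)
    (ha' : ‖a‖ ≤ B) (hb' : ‖b‖ ≤ B) : ‖a - b‖ ≤ B * D := by
  have h1 : a.im ≤ B := (le_abs_self _).trans ((abs_im_le_norm a).trans ha')
  have h2 : b.im ≤ B := (le_abs_self _).trans ((abs_im_le_norm b).trans hb')
  have hD : 0 ≤ D := le_trans (by unfold t0_dl; positivity) h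
  have h3 : √(a.im * b.im) ≤ B :=
    Real.sqrt_le_iff.2 ⟨ha.le.trans h1, by rw [sq]; exact mul_le_mul h1 h2 hb.le (ha.le.trans h1)⟩
  rw [mul_comm]
  exact (t0_norm_le_of_dl ha hb h).trans (mul_le_mul_of_nonneg_left h3 hD)

theorem t0_dl_le {a b : ℂ} {c B : ℝ} (hc : 0 < c) (ha : c ≤ a.im) (hb : c ≤ b.im) (ha' : ‖a‖ ≤ B)
    (hb' : ‖b‖ ≤ B) : t0_dl a b ≤ 2 * B / c := by
  have h1 : c ≤ √(a.im * b.im) :=
    Real.le_sqrt_of_sq_le (by rw [sq]; exact mul_le_mul ha hb hc.le (hc.le.trans ha))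
  have h2 : ‖a - b‖ ≤ 2 * B := (norm_sub_le _ _).trans (by linarith)
  exact div_le_div₀ ((norm_nonneg _).trans h2) h2 hc h1

/-- one step of the recursion contracts -/
theorem t0_step {η B D : ℝ} (hη : 0 < η) (hB : 0 ≤ B) (hD : 0 ≤ D) (s : ℝ) {z z' : ℂ} (hz : η ≤ z.im)
    (hz' : η ≤ z'.im) (a : II) {Y Y' : Fin q → ℂ} (hY : ∀ j, 0 < (Y j).im ∧ ‖Y j‖ ≤ B)
    (hY' : ∀ j, 0 < (Y' j).im ∧ ‖Y' j‖ ≤ B) (h : ∀ j, t0_dl (Y j) (Y' j) ≤ D) :
    t0_dl (Psi s z a Y) (Psi s z' a Y') ≤ ‖z - z'‖ / η + q * B / (q * B + η) * D := by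
  have key : ∀ Y : Fin q → ℂ, (∀ j, 0 < (Y j).im ∧ ‖Y j‖ ≤ B) → ∀ y : ℝ, η ≤ y →
      0 ≤ ∑ j, (Y j).im ∧ ∑ j, (Y j).im ≤ q * B / (q * B + η) * (y + ∑ j, (Y j).im) := by
    intro Y hY y hy
    have h0 : 0 ≤ ∑ j, (Y j).im := Finset.sum_nonneg fun j _ => (hY j).1.le
    have h1 : ∑ j, (Y j).im ≤ q * B := by
      calc _ ≤ ∑ _j : Fin q, B := Finset.sum_le_sum fun j _ =>
            (le_abs_self _).trans ((abs_im_le_norm _).trans (hY j).2)
        _ = _ := by simp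
    refine ⟨h0, ?_⟩
    rw [div_mul_eq_mul_div, le_div_iff₀ (by positivity)]
    nlinarith [mul_le_mul_of_nonneg_left hy (by positivity : (0 : ℝ) ≤ q * B),
      mul_le_mul_of_nonneg_right h1 hη.le]
  obtain ⟨hA0, hA⟩ := key Y hY _ hz
  obtain ⟨hA0', hA'⟩ := key Y' hY' _ hz'
  set θ := q * B / (q * B + η) with hθ
  have hθ0 : 0 ≤ θ := by positivity
  have hW : 0 < (z - s * (a : ℝ) + ∑ j, Y j).im := by rw [t0_W_im]; linarith
  have hW' : 0 < (z' - s * (a : ℝ) + ∑ j, Y' j).im := by rw [t0_W_im]; linarith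
  unfold Psi
  rw [t0_dl_inv hW hW']
  unfold t0_dl
  rw [t0_W_im, t0_W_im]
  set A := ∑ j, (Y j).im
  set A' := ∑ j, (Y' j).im
  have hs : η ≤ √((z.im + A) * (z'.im + A')) :=
    Real.le_sqrt_of_sq_le (by rw [sq]; exact mul_le_mul (by linarith) (by linarith) hη.le (by linarith))
  have h1 : √A * √A' ≤ θ * √((z.im + A) * (z'.im + A')) := by
    rw [← Real.sqrt_mul hA0, ← Real.sqrt_sq hθ0, ← Real.sqrt_mul (sq_nonneg _)]
    refine Real.sqrt_le_sqrt ?_
    calc A * A' ≤ (θ * (z.im + A)) * (θ * (z'.im + A')) := mul_le_mul hA hA' hA0' (hA0.trans hA)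
      _ = _ := by ring
  have h2 : ‖(z - s * (a : ℝ) + ∑ j, Y j) - (z' - s * (a : ℝ) + ∑ j, Y' j)‖ ≤
      ‖z - z'‖ + D * (√A * √A') := by
    have e : (z - s * (a : ℝ) + ∑ j, Y j) - (z' - s * (a : ℝ) + ∑ j, Y' j) =
        (z - z') + ∑ j, (Y j - Y' j) := by rw [Finset.sum_sub_distrib]; ring
    rw [e]
    refine (norm_add_le _ _).trans (add_le_add le_rfl ((norm_sum_le _ _).trans ?_))
    calc _ ≤ ∑ j, D * (√(Y j).im * √(Y' j).im) := Finset.sum_le_sum fun j _ => by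
          rw [← Real.sqrt_mul (hY j).1.le]
          exact t0_norm_le_of_dl (hY j).1 (hY' j).1 (h j)
      _ ≤ _ := by
          rw [← Finset.mul_sum]
          exact mul_le_mul_of_nonneg_left (Real.sum_sqrt_mul_sqrt_le _ (fun j => (hY j).1.le)
            (fun j => (hY' j).1.le)) hD
  rw [div_le_iff₀ (hη.trans_le hs)]
  have h3 : ‖z - z'‖ ≤ ‖z - z'‖ / η * √((z.im + A) * (z'.im + A')) := by
    rw [div_mul_eq_mul_div, le_div_iff₀ hη]
    exact mul_le_mul_of_nonneg_left hs (norm_nonneg _)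
  nlinarith [mul_le_mul_of_nonneg_left h1 hD]

theorem t0_psi_pos (s : ℝ) {z : ℂ} (hz : 0 < z.im) (a : II) {Y : Fin q → ℂ} (hY : ∀ j, 0 ≤ (Y j).im) :
    0 < (Psi s z a Y).im ∧ ‖Psi s z a Y‖ ≤ z.im⁻¹ := by
  have h0 : 0 ≤ ∑ j, (Y j).im := Finset.sum_nonneg fun j _ => hY j
  have hW : z.im ≤ (z - s * (a : ℝ) + ∑ j, Y j).im := by rw [t0_W_im]; linarith
  have hn := norm_pos_iff.2 (t0_ne_zero (hz.trans_le hW))
  unfold Psi
  refine ⟨by rw [t0_neg_inv_im]; exact div_pos (hz.trans_le hW) (by positivity), ?_⟩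
  rw [norm_neg, norm_inv]
  exact inv_anti₀ hz (hW.trans ((le_abs_self _).trans (abs_im_le_norm _)))

theorem t0_psi_low {s η M B : ℝ} (hs : |s| ≤ 1) (hη : 0 < η) {z : ℂ} (hz : η ≤ z.im) (hM : ‖z‖ ≤ M) (a : II)
    {Y : Fin q → ℂ} (hY : ∀ j, 0 < (Y j).im ∧ ‖Y j‖ ≤ B) :
    η / (M + 1 + q * B) ^ 2 ≤ (Psi s z a Y).im := by
  have h0 : 0 ≤ ∑ j, (Y j).im := Finset.sum_nonneg fun j _ => (hY j).1.le
  have hW : η ≤ (z - s * (a : ℝ) + ∑ j, Y j).im := by rw [t0_W_im]; linarith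
  have hn := norm_pos_iff.2 (t0_ne_zero (hη.trans_le hW))
  have h1 : ‖(s : ℂ) * (a : ℝ)‖ ≤ 1 := by
    rw [norm_mul, Complex.norm_real, Complex.norm_real]
    exact mul_le_one₀ hs (norm_nonneg _) (abs_le.2 a.2)
  have h2 : ‖∑ j, Y j‖ ≤ q * B := by
    calc _ ≤ ∑ _j : Fin q, B := (norm_sum_le _ _).trans (Finset.sum_le_sum fun j _ => (hY j).2)
      _ = _ := by simp
  have h3 : ‖z - s * (a : ℝ) + ∑ j, Y j‖ ≤ M + 1 + q * B :=
    (norm_add_le _ _).trans (add_le_add ((norm_sub_le _ _).trans (add_le_add hM h1)) h2)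
  unfold Psi
  rw [t0_neg_inv_im]
  exact div_le_div₀ (hη.le.trans hW) hW (by positivity) (pow_le_pow_left₀ hn.le h3 2)

theorem t0_mIt_bd (s : ℝ) {η : ℝ} (hη : 0 < η) {z : ℂ} (hz : η ≤ z.im) (k : ℕ) (β : Env q) :
    0 < (mIt s z k β).im ∧ ‖mIt s z k β‖ ≤ max 1 η⁻¹ := by
  induction k generalizing β with
  | zero => simp [mIt]
  | succ k ih =>
    have := t0_psi_pos s (hη.trans_le hz) (β []) (Y := fun j => mIt s z k (child β j))
      fun j => (ih _).1.le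
    exact ⟨this.1, this.2.trans ((inv_anti₀ hη hz).trans (le_max_right _ _))⟩

theorem t0_theta_lt {η B : ℝ} (hη : 0 < η) (hB : 0 ≤ B) :
    0 ≤ q * B / (q * B + η) ∧ q * B / (q * B + η) < 1 :=
  ⟨by positivity, (div_lt_one (by positivity)).2 (by linarith)⟩

/-- the iteration approaches geometrically every sequence obeying the recursion -/
theorem t0_geom {s : ℝ} (hs : |s| ≤ 1) {z : ℂ} (hz : 0 < z.im) : ∃ C θ : ℝ, 0 ≤ θ ∧ θ < 1 ∧
    ∀ f : ℕ → Env q → ℂ, (∀ k β, 0 < (f k β).im ∧ ‖f k β‖ ≤ max 1 z.im⁻¹) →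
      (∀ k β, f (k + 1) β = Psi s z (β []) fun j => f k (child β j)) →
      ∀ k β, ‖mIt s z (k + 1) β - f (k + 1) β‖ ≤ C * θ ^ k := by
  set B := max 1 z.im⁻¹
  have hB : 0 ≤ B := zero_le_one.trans (le_max_left _ _)
  obtain ⟨h0, h1⟩ := t0_theta_lt (q := q) hz hB
  set c := z.im / (‖z‖ + 1 + q * B) ^ 2
  have hc : 0 < c := by positivity
  refine ⟨B * (2 * B / c), _, h0, h1, fun f hf hr k β => ?_⟩
  have key : ∀ k β, t0_dl (mIt s z (k + 1) β) (f (k + 1) β) ≤ 2 * B / c * (q * B / (q * B + z.im)) ^ k := by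
    intro k
    induction k with
    | zero =>
      intro β
      rw [pow_zero, mul_one]
      refine t0_dl_le hc ?_ ?_ (t0_mIt_bd s hz le_rfl _ _).2 (hf _ _).2
      · exact t0_psi_low hs hz le_rfl le_rfl _ fun j => t0_mIt_bd s hz le_rfl _ _
      · rw [hr]; exact t0_psi_low hs hz le_rfl le_rfl _ fun j => hf _ _
    | succ k ih =>
      intro β
      rw [hr]
      refine (t0_step hz hB (by positivity) s le_rfl le_rfl (β [])
        (Y := fun j => mIt s z (k + 1) (child β j)) (fun j => t0_mIt_bd s hz le_rfl _ _)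
        (fun j => hf _ _) fun j => ih _).trans (le_of_eq ?_)
      rw [sub_self, norm_zero, zero_div, zero_add, pow_succ]; ring
  rw [mul_assoc]
  exact t0_norm_le_of_dl' (t0_mIt_bd s hz le_rfl _ _).1 (hf _ _).1 (key k β)
    (t0_mIt_bd s hz le_rfl _ _).2 (hf _ _).2

theorem t0_tendstoUniformly {s : ℝ} (hs : |s| ≤ 1) {z : ℂ} (hz : 0 < z.im) :
    TendstoUniformly (fun k => mIt (q := q) s z k) (mT s z) atTop := by
  obtain ⟨C, θ, h0, h1, h⟩ := t0_geom (q := q) hs hz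
  have h2 := h (fun k => mIt s z (k + 1)) (fun k β => t0_mIt_bd s hz le_rfl _ _) fun _ _ => rfl
  have h3 : ∀ β : Env q, Tendsto (fun k => mIt s z k β) atTop (𝓝 (mT s z β)) := fun β => by
    have : CauchySeq fun k => mIt s z (k + 1) β :=
      cauchySeq_of_le_geometric θ C h1 fun k => by rw [dist_eq_norm]; exact h2 k β
    exact ((cauchySeq_shift 1).1 this).tendsto_limUnder
  have h4 : ∀ k (β : Env q), dist (mIt s z (k + 1) β) (mT s z β) ≤ C * θ ^ k / (1 - θ) := fun k β =>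
    dist_le_of_le_geometric_of_tendsto θ C h1 (f := fun k => mIt s z (k + 1) β)
      (fun k => by rw [dist_eq_norm]; exact h2 k β) ((tendsto_add_atTop_iff_nat 1).2 (h3 β)) k
  have h5 : Tendsto (fun k : ℕ => C * θ ^ k / (1 - θ)) atTop (𝓝 0) := by
    simpa using ((tendsto_pow_atTop_nhds_zero_of_lt_one h0 h1).const_mul C).div_const (1 - θ)
  rw [Metric.tendstoUniformly_iff]
  intro ε hε
  obtain ⟨N, hN⟩ := eventually_atTop.1 (h5.eventually (gt_mem_nhds hε))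
  refine eventually_atTop.2 ⟨N + 1, fun k hk β => ?_⟩
  obtain ⟨k, rfl⟩ : ∃ m, k = m + 1 := ⟨k - 1, by omega⟩
  rw [dist_comm]
  exact (h4 k β).trans_lt (hN k (by omega))

theorem t0_tendsto {s : ℝ} (hs : |s| ≤ 1) {z : ℂ} (hz : 0 < z.im) (β : Env q) :
    Tendsto (fun k => mIt s z k β) atTop (𝓝 (mT s z β)) := (t0_tendstoUniformly hs hz).tendsto_at β

theorem t0_continuous_child (j : Fin q) : Continuous fun β : Env q => child β j :=
  continuous_pi fun _ => continuous_apply _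

theorem t0_continuous_mIt (s : ℝ) {z : ℂ} (hz : 0 < z.im) (k : ℕ) : Continuous (mIt (q := q) s z k) := by
  induction k with
  | zero => exact continuous_const
  | succ k ih =>
    show Continuous fun β : Env q => -(z - s * ((β [] : II) : ℝ) + ∑ j, mIt s z k (child β j))⁻¹
    refine (Continuous.inv₀ ?_ fun β => t0_ne_zero ?_).neg
    · exact (continuous_const.sub (continuous_const.mul (by fun_prop))).add
        (continuous_finsetSum _ fun j _ => ih.comp (t0_continuous_child j))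
    · rw [t0_W_im]
      exact add_pos_of_pos_of_nonneg hz (Finset.sum_nonneg fun j _ => (t0_mIt_bd s hz le_rfl _ _).1.le)

theorem t0_mT_low {s η M : ℝ} (hs : |s| ≤ 1) (hη : 0 < η) {z : ℂ} (hz : η ≤ z.im) (hM : ‖z‖ ≤ M)
    (β : Env q) : η / (M + 1 + q * max 1 η⁻¹) ^ 2 ≤ (mT s z β).im :=
  ge_of_tendsto' ((continuous_im.tendsto _).comp
    ((tendsto_add_atTop_iff_nat 1).2 (t0_tendsto hs (hη.trans_le hz) β))) fun _ =>
      t0_psi_low hs hη hz hM _ fun _ => t0_mIt_bd s hη hz _ _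

theorem t0_mT_pos {s : ℝ} (hs : |s| ≤ 1) {z : ℂ} (hz : 0 < z.im) (β : Env q) : 0 < (mT s z β).im :=
  lt_of_lt_of_le (by positivity) (t0_mT_low hs hz le_rfl le_rfl β)

theorem t0_mT_rec {s : ℝ} (hs : |s| ≤ 1) {z : ℂ} (hz : 0 < z.im) (β : Env q) :
    mT s z β = Psi s z (β []) fun j => mT s z (child β j) := by
  refine tendsto_nhds_unique ((tendsto_add_atTop_iff_nat 1).2 (t0_tendsto hs hz β)) ?_
  show Tendsto (fun k => -(z - s * ((β [] : II) : ℝ) + ∑ j, mIt s z k (child β j))⁻¹) _ _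
  refine (Tendsto.inv₀ (tendsto_const_nhds.add
    (tendsto_finsetSum _ fun j _ => t0_tendsto hs hz _)) (t0_ne_zero ?_)).neg
  rw [t0_W_im]
  exact add_pos_of_pos_of_nonneg hz (Finset.sum_nonneg fun j _ => (t0_mT_pos hs hz _).le)

/-- uniqueness of the solution of the recursion in the upper half plane -/
theorem t0_mT_unique {s : ℝ} (hs : |s| ≤ 1) {z : ℂ} (hz : 0 < z.im) {f : Env q → ℂ}
    (hf : ∀ β, 0 ≤ (f β).im) (hr : ∀ β, f β = Psi s z (β []) fun j => f (child β j)) : mT s z = f := by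
  obtain ⟨C, θ, h0, h1, h⟩ := t0_geom (q := q) hs hz
  have h2 := h (fun _ => f) (fun _ β => by
    have := t0_psi_pos s hz (β []) (Y := fun j => f (child β j)) fun j => hf _
    rw [← hr] at this
    exact ⟨this.1, this.2.trans (le_max_right _ _)⟩) fun _ => hr
  funext β
  refine tendsto_nhds_unique ((tendsto_add_atTop_iff_nat 1).2 (t0_tendsto hs hz β)) ?_
  rw [tendsto_iff_norm_sub_tendsto_zero]
  refine squeeze_zero (fun _ => norm_nonneg _) (fun k => h2 k β) ?_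
  simpa using (tendsto_pow_atTop_nhds_zero_of_lt_one h0 h1).const_mul C

theorem t0_mT_lip {s η : ℝ} (hs : |s| ≤ 1) (hη : 0 < η) {z z' : ℂ} (hz : η ≤ z.im) (hz' : η ≤ z'.im)
    (β : Env q) : ‖mT s z β - mT s z' β‖ ≤
      max 1 η⁻¹ / (η * (1 - q * max 1 η⁻¹ / (q * max 1 η⁻¹ + η))) * ‖z - z'‖ := by
  set B := max 1 η⁻¹
  have hB : 0 ≤ B := zero_le_one.trans (le_max_left _ _)
  obtain ⟨h0, h1⟩ := t0_theta_lt (q := q) hη hB
  set θ := q * B / (q * B + η) with hθ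
  have h2 : 0 < 1 - θ := sub_pos.2 h1
  have key : ∀ k (β : Env q), t0_dl (mIt s z k β) (mIt s z' k β) ≤ ‖z - z'‖ / (η * (1 - θ)) := by
    intro k
    induction k with
    | zero => intro β; simp only [mIt, t0_dl, sub_self, norm_zero, zero_div]; positivity
    | succ k ih =>
      intro β
      refine (t0_step hη hB (by positivity) s hz hz' (β [])
        (Y := fun j => mIt s z k (child β j)) (fun j => t0_mIt_bd s hη hz _ _)
        (fun j => t0_mIt_bd s hη hz' _ _) fun j => ih _).trans (le_of_eq ?_)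
      rw [← hθ]; field_simp; ring
  refine le_of_tendsto' ((t0_tendsto hs (hη.trans_le hz) β).sub (t0_tendsto hs (hη.trans_le hz') β)).norm
    fun k => (t0_norm_le_of_dl' (t0_mIt_bd s hη hz _ _).1 (t0_mIt_bd s hη hz' _ _).1 (key k β)
      (t0_mIt_bd s hη hz _ _).2 (t0_mIt_bd s hη hz' _ _).2).trans (le_of_eq ?_)
  ring

theorem stT0 : StT0 := by
  intro q s h0 h1
  have hs : |s| ≤ 1 := by rwa [abs_of_nonneg h0]
  refine ⟨fun z hz => ⟨t0_tendstoUniformly hs hz, (t0_tendstoUniformly hs hz).continuous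
    (Frequently.of_forall (t0_continuous_mIt s hz)), fun β => ⟨t0_mT_pos hs hz β, ?_, t0_mT_rec hs hz β⟩⟩,
    fun η M hη => ⟨η / (max M 0 + 1 + q * max 1 η⁻¹) ^ 2, _, by positivity, fun z z' hz hz' hM _ β =>
      ⟨t0_mT_low hs hη hz (hM.trans (le_max_left _ _)) β, t0_mT_lip hs hη hz hz' β⟩⟩⟩
  rw [t0_mT_rec hs hz]
  exact (t0_psi_pos s hz _ fun j => (t0_mT_pos hs hz _).le).2

end Crest.Agent.R166
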