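import Crest.Agent.R166.T0.Eig
import Crest.Agent.R166.T0.Env
import Crest.Agent.R166.T0.Tree

/-!
# Row 166, block T0: `stE`, `stEnv`, `stT0` (imported) and the Kesten-McKay density `stKM`
-/

set_option autoImplicit false

open MeasureTheory Filter Topology Complex
open scoped BigOperators

noncomputable section

namespace Crest.Agent.R166

theorem t0_zk_re (E : ℝ) (k : ℕ) : (zk E k).re = E := by
  unfold zk
  rw [add_re, ofReal_re, re_ofReal_mul, I_re, mul_zero, add_zero]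

theorem t0_zk_im (E : ℝ) (k : ℕ) : (zk E k).im = (2 : ℝ)⁻¹ ^ k := by
  unfold zk
  rw [add_im, ofReal_im, im_ofReal_mul, I_im, mul_one, zero_add]

theorem t0_norm_zk_sub (E : ℝ) (k : ℕ) : ‖zk E k - E‖ = (2 : ℝ)⁻¹ ^ k := by
  unfold zk
  rw [add_sub_cancel_left, norm_mul, norm_I, mul_one, Complex.norm_real, Real.norm_of_nonneg (by positivity)]

theorem t0_mT_zero {q : ℕ} {z m : ℂ} (hz : 0 < z.im) (hm : 0 < m.im) (h : q * m ^ 2 + z * m + 1 = 0)
    (β : Env q) : mT 0 z β = m := by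
  rw [t0_mT_unique (s := 0) (by simp) hz (f := fun _ => m) (fun _ => hm.le) fun β => ?_]
  unfold Psi
  have h1 : (z - ((0 : ℝ) : ℂ) * ((β [] : II) : ℝ) + ∑ _j : Fin q, m) * (-m) = 1 := by
    simp only [Finset.sum_const, Finset.card_univ, Fintype.card_fin, nsmul_eq_mul, ofReal_zero]
    linear_combination -h
  rw [inv_eq_of_mul_eq_one_right h1, neg_neg]

theorem t0_km_alg {q : ℕ} (hq : 2 ≤ q) {E : ℝ} {m : ℂ} (hm : 0 < m.im) (h : q * m ^ 2 + E * m + 1 = 0) :
    (-((E : ℂ) + ((q : ℂ) + 1) * m)⁻¹).im =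
      (q + 1) * √(4 * (q : ℝ) - E ^ 2) / (2 * (((q : ℝ) + 1) ^ 2 - E ^ 2)) := by
  have hq' : (2 : ℝ) ≤ q := by exact_mod_cast hq
  have h1 := congrArg Complex.re h
  have h2 := congrArg Complex.im h
  simp [sq] at h1 h2
  set x := m.re
  set y := m.im
  have h3 : 2 * q * x + E = 0 := mul_right_cancel₀ hm.ne' (by linear_combination h2)
  have h4 : 4 * (q : ℝ) - E ^ 2 = (2 * q * y) ^ 2 := by
    linear_combination 4 * q * h1 - (2 * q * x + E) * h3
  have h5 : Complex.normSq ((E : ℂ) + ((q : ℂ) + 1) * m) * q = (q + 1) ^ 2 - E ^ 2 := by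
    simp [Complex.normSq_apply]
    linear_combination -(q + 1) ^ 2 * h1 + ((q + 1) ^ 2 * x + (q + 1) * E) * h3
  have h6 : 0 < ((q : ℝ) + 1) ^ 2 - E ^ 2 := by nlinarith [sq_nonneg (2 * q * y)]
  have h7 : 0 < Complex.normSq ((E : ℂ) + ((q : ℂ) + 1) * m) := by
    by_contra h0
    nlinarith [not_lt.1 h0]
  rw [h4, Real.sqrt_sq (by positivity), ← h5, neg_im, inv_im]
  have h8 : ((E : ℂ) + ((q : ℂ) + 1) * m).im = (q + 1) * y := by simp [y]
  rw [h8]
  field_simp

theorem stKM (hC : StC0) : StKM := by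
  intro q κ E hq hκ hE
  obtain ⟨Λ, -, h, -⟩ := hC q κ hq hκ
  have hE' : Bulk q κ (E : ℂ).re := by simpa using hE
  have hz : ∀ k, 0 < (zk E k).im := fun k => by rw [t0_zk_im]; positivity
  have hb : ∀ k, Bulk q κ (zk E k).re := fun k => by rwa [t0_zk_re]
  obtain ⟨hm, he, -⟩ := h E (by simp) hE'
  have h1 : ∀ β : Env q, mB 0 E β = m0 q E := fun β => by
    refine Tendsto.limUnder_eq ?_
    rw [tendsto_iff_norm_sub_tendsto_zero]
    refine squeeze_zero (g := fun k => Λ * (2 : ℝ)⁻¹ ^ k) (fun _ => norm_nonneg _) (fun k => ?_) ?_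
    · obtain ⟨h1, h2, -, -, -, h3⟩ := h (zk E k) (hz k).le (hb k)
      rw [t0_mT_zero (hz k) h1 h2, ← t0_norm_zk_sub E k]
      exact (h3 E (by simp) hE').1
    · simpa using (tendsto_pow_atTop_nhds_zero_of_lt_one (r := (2 : ℝ)⁻¹) (by norm_num)
        (by norm_num)).const_mul Λ
  have h2 : ∀ e : SEnv q, (Psi 0 E e.1 fun i => mB 0 E (e.2 i)) = -((E : ℂ) + ((q : ℂ) + 1) * m0 q E)⁻¹ := by
    intro e
    simp [Psi, h1]
  unfold rho Crest.ProbabilityR.RandomMatrix.kestenMcKayDensity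
  simp only [h2]
  rw [integral_const, probReal_univ, one_smul, t0_km_alg hq hm he]
  push_cast
  rw [add_sub_cancel_right, div_div]
  congr 1
  ring

end Crest.Agent.R166
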