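import Crest.Agent.R166.Iface

/-!
# Row 166, block E: measurability of eigenvalues, spectral decomposition of the resolvent
-/

set_option autoImplicit false

open MeasureTheory Filter Topology Complex Polynomial
open scoped BigOperators Matrix

noncomputable section

namespace Crest.Agent.R166

variable {V : Type} [Fintype V] [DecidableEq V]

theorem t0_antitone_ext {n : ℕ} {f g : Fin n → ℝ} (hf : Antitone f) (hg : Antitone g)
    (h : ∀ t : ℝ, ∏ i, (t - f i) = ∏ i, (t - g i)) : f = g := by
  have h1 : (∏ i, (X - C (f i)) : ℝ[X]) = ∏ i, (X - C (g i)) :=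
    Polynomial.funext fun t => by simpa [eval_prod] using h t
  have h2 : ∀ u : Fin n → ℝ, (∏ i, (X - C (u i)) : ℝ[X]).roots = (List.ofFn u : Multiset ℝ) := by
    intro u
    rw [← Fin.univ_val_map, ← roots_multiset_prod_X_sub_C (Finset.univ.val.map u), Multiset.map_map]
    rfl
  have h3 : (List.ofFn f).Perm (List.ofFn g) := by
    rw [← Multiset.coe_eq_coe, ← h2, ← h2, h1]
  exact List.ofFn_injective (h3.eq_of_sortedGE hf.sortedGE_ofFn hg.sortedGE_ofFn)

theorem t0_det_eq {A : Matrix V V ℝ} (hA : A.IsHermitian) (t : ℝ) :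
    (Matrix.scalar V t - A).det = ∏ i, (t - hA.eigenvalues i) := by
  rw [← Matrix.eval_charpoly, hA.charpoly_eq]
  simp [eval_prod]

theorem t0_ev_eq_iff (A : Matrix V V ℝ) (μ : V → ℝ) : ev A = μ ↔
    (A.IsHermitian ∧ Antitone (fun k : Fin (Fintype.card V) =>
        μ (Fintype.equivOfCardEq (Fintype.card_fin _) k)) ∧
      ∀ t : ℝ, (Matrix.scalar V t - A).det = ∏ i, (t - μ i)) ∨ (¬ A.IsHermitian ∧ μ = 0) := by
  unfold ev
  by_cases hA : A.IsHermitian
  · rw [dif_pos hA]
    have h0 : (fun k : Fin (Fintype.card V) =>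
        hA.eigenvalues (Fintype.equivOfCardEq (Fintype.card_fin _) k)) = hA.eigenvalues₀ := by
      funext k; simp [Matrix.IsHermitian.eigenvalues]
    constructor
    · rintro rfl
      exact Or.inl ⟨hA, h0 ▸ hA.eigenvalues₀_antitone, t0_det_eq hA⟩
    · rintro (⟨-, h1, h2⟩ | ⟨h1, -⟩)
      · have h3 := t0_antitone_ext (h0 ▸ hA.eigenvalues₀_antitone) h1 fun t => by
          rw [Equiv.prod_comp (Fintype.equivOfCardEq (Fintype.card_fin (Fintype.card V)))
            (fun i => t - hA.eigenvalues i), Equiv.prod_comp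
            (Fintype.equivOfCardEq (Fintype.card_fin (Fintype.card V))) (fun i => t - μ i),
            ← t0_det_eq hA, h2]
        funext i
        have := congrFun h3 ((Fintype.equivOfCardEq (Fintype.card_fin (Fintype.card V))).symm i)
        simpa using this
      · exact absurd hA h1
  · rw [dif_neg hA]
    constructor
    · rintro rfl; exact Or.inr ⟨hA, rfl⟩
    · rintro (⟨h1, -⟩ | ⟨-, h1⟩)
      · exact absurd h1 hA
      · exact h1.symm

omit [Fintype V] [DecidableEq V] in
theorem t0_isClosed_herm : IsClosed {A : Matrix V V ℝ | A.IsHermitian} :=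
  isClosed_eq (continuous_id.matrix_conjTranspose) continuous_id

theorem t0_measurableSet_graph : MeasurableSet {p : Matrix V V ℝ × (V → ℝ) | ev p.1 = p.2} := by
  simp only [t0_ev_eq_iff, Set.ofPred_or, Set.ofPred_and]
  have h1 : IsClosed {p : Matrix V V ℝ × (V → ℝ) | p.1.IsHermitian} :=
    t0_isClosed_herm.preimage continuous_fst
  refine MeasurableSet.union (IsClosed.measurableSet (h1.inter (IsClosed.inter ?_ ?_)))
    (h1.measurableSet.compl.inter (isClosed_eq continuous_snd continuous_const).measurableSet)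
  · simp only [Antitone, Set.ofPred_forall]
    exact isClosed_iInter fun _ => isClosed_iInter fun _ => isClosed_iInter fun _ =>
      isClosed_le (by fun_prop) (by fun_prop)
  · simp only [Set.ofPred_forall]
    exact isClosed_iInter fun t => isClosed_eq
      ((continuous_const.sub continuous_fst).matrix_det) (by fun_prop)

theorem t0_measurable_ev : Measurable (ev : Matrix V V ℝ → V → ℝ) := by
  intro T hT
  have : PolishSpace (Matrix V V ℝ) := inferInstanceAs (PolishSpace (V → V → ℝ))
  have h1 : ev ⁻¹' T = Prod.fst '' ({p : Matrix V V ℝ × (V → ℝ) | ev p.1 = p.2} ∩ Prod.snd ⁻¹' T) := by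
    ext A
    constructor
    · intro h; exact ⟨(A, ev A), ⟨rfl, h⟩, rfl⟩
    · rintro ⟨p, ⟨h1, h2⟩, rfl⟩
      show ev p.1 ∈ T
      rw [show ev p.1 = p.2 from h1]; exact h2
  rw [h1]
  refine (t0_measurableSet_graph.inter (measurable_snd hT)).image_of_continuousOn_injOn
    continuous_fst.continuousOn fun p hp p' hp' h => Prod.ext h ?_
  rw [← show ev p.1 = p.2 from hp.1, ← show ev p'.1 = p'.2 from hp'.1, h]

theorem t0_Gr_eq (A : Matrix V V ℝ) (lam : V → ℝ) (u : V → V → ℝ) (h1 : ∀ i, A *ᵥ u i = lam i • u i)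
    (h3 : ∀ x y, ∑ i, u i x * u i y = if x = y then 1 else 0) (z : ℂ) (hz : ∀ i, (lam i : ℂ) ≠ z)
    (x y : V) : Gr A z x y = ∑ i, (u i x * u i y : ℝ) / ((lam i : ℂ) - z) := by
  have : Gr A z = Matrix.of fun x y => ∑ i, (u i x * u i y : ℝ) / ((lam i : ℂ) - z) := by
    unfold Gr
    refine Matrix.inv_eq_right_inv ?_
    ext x y
    have h4 : ∀ i, ∑ v, (A x v : ℂ) * u i v = lam i * u i x := fun i => by
      have := congrFun (h1 i) x
      simp only [Matrix.mulVec, dotProduct, Pi.smul_apply, smul_eq_mul] at this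
      exact_mod_cast this
    rw [Matrix.sub_mul, Matrix.smul_mul, Matrix.one_mul, Matrix.sub_apply, Matrix.mul_apply,
      Matrix.one_apply]
    simp only [Matrix.map_apply, Matrix.of_apply, Matrix.smul_apply, smul_eq_mul, Finset.mul_sum]
    rw [Finset.sum_comm, ← Finset.sum_sub_distrib]
    have h5 : ((∑ i, u i x * u i y : ℝ) : ℂ) = if x = y then 1 else 0 := by
      rw [h3]; split_ifs <;> simp
    rw [← h5, Complex.ofReal_sum]
    refine Finset.sum_congr rfl fun i _ => ?_
    have h6 : ∑ v, (A x v : ℂ) * (((u i v * u i y : ℝ) : ℂ) / ((lam i : ℂ) - z)) =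
        (∑ v, (A x v : ℂ) * u i v) * (u i y / ((lam i : ℂ) - z)) := by
      rw [Finset.sum_mul]
      refine Finset.sum_congr rfl fun v _ => ?_
      push_cast; ring
    rw [h6, h4]
    have := sub_ne_zero.2 (hz i)
    push_cast
    field_simp
  rw [this]; rfl

theorem stE : StE := by
  intro V _ _
  refine ⟨t0_measurable_ev, fun A hA => ?_⟩
  have hev : ev A = hA.eigenvalues := dif_pos hA
  have h1 : ∀ i, A *ᵥ (fun v => hA.eigenvectorBasis i v) = ev A i • fun v => hA.eigenvectorBasis i v := by
    intro i; rw [hev]; exact hA.mulVec_eigenvectorBasis i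
  have h2 : ∀ i j, ∑ v, hA.eigenvectorBasis i v * hA.eigenvectorBasis j v = if i = j then 1 else 0 := by
    intro i j
    have := congrFun (congrFun (Unitary.coe_star_mul_self hA.eigenvectorUnitary) i) j
    simpa [Matrix.mul_apply, Matrix.one_apply, Matrix.star_apply] using this
  have h3 : ∀ x y, ∑ i, hA.eigenvectorBasis i x * hA.eigenvectorBasis i y = if x = y then 1 else 0 := by
    intro x y
    have := congrFun (congrFun (Unitary.coe_mul_star_self hA.eigenvectorUnitary) x) y
    simpa [Matrix.mul_apply, Matrix.one_apply, Matrix.star_apply] using this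
  exact ⟨fun i v => hA.eigenvectorBasis i v, h1, h2, h3, t0_Gr_eq A _ _ h1 h3⟩

end Crest.Agent.R166
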